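import Vale.Agent.P333.H241.Tg.Str

set_option autoImplicit false
set_option maxRecDepth 100000

/-!
P333: forced greedy steps.
-/

namespace Vale.Agent.P333.H241.Tg

open Vale.Agent.P333.H241

theorem st12 (n : ℕ) (h : Len (m12 :: [m11, m10, m9, m7, m5]) n) :
    Len [m11, m10, m9, m7, m5, m4, m1] n := by
  have hp : List.Perm [m11, m10, m9, m7, m5, m4, m1] (m1 :: m4 :: [m11, m10, m9, m7, m5]) := by
    rw [← List.isPerm_iff]
    decide +kernel
  have hnd : List.Nodup (m1 :: m4 :: [m11, m10, m9, m7, m5]) := by decide +kernel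
  have hk : List.drop (m1.length - (22 + 1)) m1 = List.take (22 + 1) m4 := by decide +kernel
  have hg : goodEx m1 m4 (m1 :: m4 :: [m11, m10, m9, m7, m5]) 22 = true := by decide +kernel
  have hgxy : noOv (22 + 1) m4 m1 m1.length = true := by decide +kernel
  have hm : List.take (m1.length - (22 + 1)) m1 ++ m4 = m12 := by decide +kernel
  exact forced m1 m4 m12 [m11, m10, m9, m7, m5] 22 n hp hnd (by decide +kernel) hk hg hgxy hm h

theorem st13 (n : ℕ) (h : Len (m13 :: [m12, m11, m10, m7]) n) :
    Len [m12, m11, m10, m9, m7, m5] n := by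
  have hp : List.Perm [m12, m11, m10, m9, m7, m5] (m9 :: m5 :: [m12, m11, m10, m7]) := by
    rw [← List.isPerm_iff]
    decide +kernel
  have hnd : List.Nodup (m9 :: m5 :: [m12, m11, m10, m7]) := by decide +kernel
  have hk : List.drop (m9.length - (3 + 1)) m9 = List.take (3 + 1) m5 := by decide +kernel
  have hg : goodEx m9 m5 (m9 :: m5 :: [m12, m11, m10, m7]) 3 = true := by decide +kernel
  have hgxy : noOv (3 + 1) m5 m9 m9.length = true := by decide +kernel
  have hm : List.take (m9.length - (3 + 1)) m9 ++ m5 = m13 := by decide +kernel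
  exact forced m9 m5 m13 [m12, m11, m10, m7] 3 n hp hnd (by decide +kernel) hk hg hgxy hm h

end Vale.Agent.P333.H241.Tg
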