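import Vale.Agent.P333.H241.Tg.StA
import Vale.Agent.P333.H241.Tg.StB
import Vale.Agent.P333.H241.Tg.StC
import Vale.Agent.P333.H241.Tg.StD

set_option autoImplicit false
set_option maxRecDepth 100000

/-!
P333: every greedy superstring of the family is longer than twice a shortest one.
-/

namespace Vale.Agent.P333.H241.Tg

open Vale.Agent.P333 Vale.Agent.P333.H241

def S : List (List ℕ) := [x0, y0, x1, y1, x2, y2, x3, y3, x4, y4, x5, y5, h0, h1, h2, h3, h4, h5, h6]

theorem fin : Len [m13, m12, m11, m10, m7] 1187 := by
  have h1 : Zero [m13, m12, m11, m10, m7] := zero_of (by decide +kernel) (by decide +kernel) (by decide +kernel)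
  have h2 := len_of_zero _ [m13, m12, m11, m10, m7] rfl h1 (by decide +kernel)
  have h3 : (List.map List.length [m13, m12, m11, m10, m7]).sum = 1187 := by decide +kernel
  rw [h3] at h2
  exact h2

theorem len : Len S 1187 := by
  have h := fin
  have h := st13 _ h
  have h := st12 _ h
  have h := st11 _ h
  have h := st10 _ h
  have h := st9 _ h
  have h := st8 _ h
  have h := st7 _ h
  have h := st6 _ h
  have h := st5 _ h
  have h := st4 _ h
  have h := st3 _ h
  have h := st2 _ h
  have h := st1 _ h
  have h := st0 _ h
  exact h

theorem nd : S.Nodup := by decide +kernel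

theorem fr : free S = true := by decide +kernel

theorem sup_ok : S.all (fun s => inf s sup) = true := by decide +kernel

theorem sup_len : sup.length = 588 := by decide +kernel

theorem main : Greedy.Reduced S S ∧ opt S ≤ 588 ∧ ∀ t, Greedy.Output S t → t.length = 1187 :=
  ⟨reduced_self nd fr, (opt_le sup_ok).trans sup_len.le, output_len nd fr len⟩

end Vale.Agent.P333.H241.Tg
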